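import Mathlib
import Vale.Agent.Lib.P034.Defs
import Vale.Agent.Lib.P034.Degree

/-!
P034: Talagrand's comparison holds with `K = 49152 D²` for fractional covers whose support has
degree at most `D`: every point of the ground set lies in at most `D` sets of nonzero weight
(the sets themselves may be arbitrarily large).  This is the counterpart of the bounded-size
case: there the sets are small, here every point is in few sets.
-/

namespace Vale.Agent.Results.P034.BoundedDegreeSupport

open Vale.Agent.Lib.P034

/-- Let `g` be a fractional cover of a family `F` of subsets of the finite set `X`, of cost at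
most `1/2` at `p ∈ [0,1]`, and let `D ≥ 1` be such that for every point `x` there is a list `T`
of at most `D` sets containing every set `S ∋ x` with `g S ≠ 0`.  Then `F` is
`(p / (49152 D²))`-small. -/
theorem result {X : Type*} [Fintype X] [DecidableEq X] (F : Finset (Finset X))
    (g : Finset X → ℝ) (p : ℝ) (D : ℕ) (hD : 1 ≤ D) (hp0 : 0 ≤ p) (hp1 : p ≤ 1)
    (hg : IsFracCover F g)
    (hdeg : ∀ x : X, ∃ T : Finset (Finset X), T.card ≤ D ∧
      ∀ S : Finset X, g S ≠ 0 → x ∈ S → S ∈ T)
    (hcost : fracCost g p ≤ 1 / 2) :
    IsSmall F (p / (49152 * (D : ℝ) ^ 2)) :=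
  bounded_degree_small F g p D hD hp0 hp1 hg hdeg hcost

end Vale.Agent.Results.P034.BoundedDegreeSupport
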