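import Mathlib
import Vale.Agent.Lib.P034.Defs
import Vale.Agent.Lib.P034.Connected

/-!
P034: Talagrand's comparison holds with `K = 6144 Δ²` for fractional covers all of whose sets of
positive weight are connected vertex sets of a graph of maximum degree at most `Δ` on the ground
set (sets of unbounded size; for instance intervals of a path, or connected sets of a grid).
-/

namespace Vale.Agent.Results.P034.ConnectedSupport

open Vale.Agent.Lib.P034

/-- Let `G` be a graph on the finite ground set `X` with all degrees at most `Δ` (`Δ ≥ 1`).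
If a family `F` of subsets of `X` has a fractional cover `g` of cost at most `1/2` at
`p ∈ [0,1]` such that every set `S` with `g S ≠ 0` induces a connected subgraph of `G`, then
`F` is `(p / (6144 Δ²))`-small. -/
theorem result {X : Type*} [Fintype X] [DecidableEq X] (G : SimpleGraph X) [DecidableRel G.Adj]
    (Δ : ℕ) (hΔ : 1 ≤ Δ) (hdeg : ∀ v, G.degree v ≤ Δ)
    (F : Finset (Finset X)) (g : Finset X → ℝ) (p : ℝ) (hp0 : 0 ≤ p) (hp1 : p ≤ 1)
    (hg : IsFracCover F g)
    (hconn : ∀ S : Finset X, g S ≠ 0 → (G.induce (S : Set X)).Connected)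
    (hcost : fracCost g p ≤ 1 / 2) :
    IsSmall F (p / (6144 * (Δ : ℝ) ^ 2)) :=
  connected_small G Δ hΔ hdeg F g p hp0 hp1 hg hconn hcost

end Vale.Agent.Results.P034.ConnectedSupport
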