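import Mathlib
import Vale.Agent.Lib.P034.Defs
import Vale.Agent.Lib.P034.Contain

/-!
P034: Talagrand's comparison, with a universal constant, for the increasing properties
`the graph contains a copy of H`, for every forest `H` and for every graph `H` of bounded
maximum degree.

The ground set is the set of unordered pairs of elements of `Fin n`, and `containFamily n H` is
the family of all sets `A` of pairs such that the graph on `Fin n` with edge set `A` has a
subgraph isomorphic to `H`.  If `H` has an edge and at most `n` vertices and `g` is a
fractional cover of this family with cost at most `1/2` at `p`, then the family is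
`p / 74000`-small when `H` is a forest, and `p / (74 D)`-small when every vertex of `H` has
degree at most `D`.
-/

namespace Vale.Agent.Results.P034.ContainmentFamilies

open Vale.Agent.Lib.P034

theorem result (n : ℕ) {W : Type} [Fintype W] (H : SimpleGraph W) (hW : Fintype.card W ≤ n)
    (hH : ∃ a b, H.Adj a b) (g : Finset (Sym2 (Fin n)) → ℝ) (p : ℝ) (hp0 : 0 ≤ p)
    (hg : IsFracCover (containFamily n H) g) (hcost : fracCost g p ≤ 1 / 2) :
    (H.IsAcyclic → IsSmall (containFamily n H) (p / 74000)) ∧
      ∀ D : ℕ, 1 ≤ D → (∀ w : W, (H.neighborSet w).ncard ≤ D) →
        IsSmall (containFamily n H) (p / (74 * (D : ℝ))) :=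
  ⟨fun hacyc => contain_small_forest n H hacyc hW hH g p hp0 hg hcost,
    fun D hD1 hD => contain_small_degree n H hW hH D hD1 hD g p hp0 hg hcost⟩

end Vale.Agent.Results.P034.ContainmentFamilies
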