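import Mathlib
import Vale.Agent.Lib.P034.Defs
import Vale.Agent.Lib.P034.Contain
import Vale.Agent.Lib.P034.Connected
import Vale.Agent.Lib.P034.Degree
import Vale.Agent.Lib.P034.Disjoint

/-!
P034: Talagrand's comparison of the fractional and the integral expectation thresholds in five
classes at once (the conjunction of the four separate results of this folder).

1. Containment families: the family of all edge sets on `Fin n` whose graph contains a copy of
   a fixed graph `H` (with an edge and at most `n` vertices).  A fractional cover of cost at most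
   `1/2` at `p` makes the family `p / 74000`-small when `H` is a forest, and `p / (74 D)`-small
   when every vertex of `H` has at most `D` neighbours.
2. Connected supports: fractional covers all of whose sets of nonzero weight induce connected
   subgraphs of a graph of maximum degree at most `Δ` on the ground set: `p / (6144 Δ²)`-small.
3. Supports of bounded degree: every point of the ground set lies in at most `D` sets of nonzero
   weight: `p / (49152 D²)`-small.
4. Disjoint certificates: every member of the family contains pairwise disjoint sets of total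
   weight at least one: `p / 3072`-small.
-/

namespace Vale.Agent.Results.P034.FiveClasses

open Vale.Agent.Lib.P034

universe u

theorem result :
    (∀ (n : ℕ) {W : Type} [Fintype W] (H : SimpleGraph W), Fintype.card W ≤ n →
      (∃ a b, H.Adj a b) → ∀ (g : Finset (Sym2 (Fin n)) → ℝ) (p : ℝ), 0 ≤ p →
      IsFracCover (containFamily n H) g → fracCost g p ≤ 1 / 2 →
      (H.IsAcyclic → IsSmall (containFamily n H) (p / 74000)) ∧
        ∀ D : ℕ, 1 ≤ D → (∀ w : W, (H.neighborSet w).ncard ≤ D) →
          IsSmall (containFamily n H) (p / (74 * (D : ℝ)))) ∧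
    (∀ {X : Type u} [Fintype X] [DecidableEq X] (G : SimpleGraph X) [DecidableRel G.Adj]
      (Δ : ℕ), 1 ≤ Δ → (∀ v, G.degree v ≤ Δ) →
      ∀ (F : Finset (Finset X)) (g : Finset X → ℝ) (p : ℝ), 0 ≤ p → p ≤ 1 →
      IsFracCover F g →
      (∀ S : Finset X, g S ≠ 0 → (G.induce (S : Set X)).Connected) →
      fracCost g p ≤ 1 / 2 →
      IsSmall F (p / (6144 * (Δ : ℝ) ^ 2))) ∧
    (∀ {X : Type u} [Fintype X] [DecidableEq X] (F : Finset (Finset X))
      (g : Finset X → ℝ) (p : ℝ) (D : ℕ), 1 ≤ D → 0 ≤ p → p ≤ 1 →
      IsFracCover F g →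
      (∀ x : X, ∃ T : Finset (Finset X), T.card ≤ D ∧
        ∀ S : Finset X, g S ≠ 0 → x ∈ S → S ∈ T) →
      fracCost g p ≤ 1 / 2 →
      IsSmall F (p / (49152 * (D : ℝ) ^ 2))) ∧
    (∀ {X : Type u} [Fintype X] [DecidableEq X] (F : Finset (Finset X))
      (g : Finset X → ℝ) (p : ℝ), 0 ≤ p →
      (∀ S, 0 ≤ g S ∧ g S ≤ 1) →
      (∀ H ∈ F, ∃ I : Finset (Finset X), (∀ S ∈ I, S ⊆ H) ∧
        (∀ S ∈ I, ∀ T ∈ I, S ≠ T → Disjoint S T) ∧ 1 ≤ ∑ S ∈ I, g S) →
      fracCost g p ≤ 1 / 2 →
      IsSmall F (p / 3072)) := by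
  refine ⟨?_, ?_, ?_, ?_⟩
  · intro n W _ H hW hH g p hp0 hg hcost
    exact ⟨fun hacyc => contain_small_forest n H hacyc hW hH g p hp0 hg hcost,
      fun D hD1 hD => contain_small_degree n H hW hH D hD1 hD g p hp0 hg hcost⟩
  · intro X _ _ G _ Δ hΔ hdeg F g p hp0 hp1 hg hconn hcost
    exact connected_small G Δ hΔ hdeg F g p hp0 hp1 hg hconn hcost
  · intro X _ _ F g p D hD hp0 hp1 hg hdeg hcost
    exact bounded_degree_small F g p D hD hp0 hp1 hg hdeg hcost
  · intro X _ _ F g p hp0 hg01 hF hcost
    exact disjoint_cert_small F g p hp0 hg01 hF hcost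

end Vale.Agent.Results.P034.FiveClasses
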